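import Vale.Agent.P114.All

open MeasureTheory

namespace Vale.Agent.Results.P114.EntropyRate

open Vale.Agent.P114

theorem result {Λ : Type} [Fintype Λ] [Nonempty Λ] (p r t : Λ → ℝ)
    (hr : ∀ i, 0 < |r i| ∧ |r i| < 1) (hp : ∀ i, 0 < p i) (hsum : ∑ i, p i = 1)
    (μ : Measure ℝ) [IsProbabilityMeasure μ]
    (hμ : μ = ∑ i, ENNReal.ofReal (p i) • μ.map (fun x => r i * x + t i)) :
    dimM μ = ENNReal.ofReal (min 1 (hRW p r t / lyap p r)) :=
  mainAll Λ p r t μ ⟨fun i => (hr i).1, fun i => (hr i).2, hp, hsum, inferInstance, hμ⟩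

end Vale.Agent.Results.P114.EntropyRate
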